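import Vale.Agent.Lib.P064.PP.Bridge

/-!
P064, module PP5 (`spread_of_tilde`): the spread of a uniformly random embedding of `H`.
The statement is frozen.

Route for `spread_of_tilde`.  Let `U` be given, `B : Finset (Fin n)` the set of end points of the
pairs in `U`, and `F` the graph on `↥B` whose edges are the pairs in `U`
(`F.edgeSet.ncard = U.card`).  An embedding `σ` satisfies `U ⊆ embSet H σ` iff `B ⊆ range σ` and
`σ⁻¹` restricted to `B` is a copy of `F` in `H`.  So the number of such `σ` equals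
`card (Copy F H) * (n - B.card).descFactorial (card V - B.card)`, and
`n.descFactorial (card V) = n.descFactorial B.card * (n - B.card).descFactorial (card V - B.card)`
(`Nat.descFactorial_mul_descFactorial`), so the left side is
`H.labelledCopyCount F / n.descFactorial B.card = H.copyCount F / (⊤ : SimpleGraph (Fin n)).copyCount F`
by `labelledCopyCount_eq` and `labelledCopyCount_top`.  If there is no copy the sum is `0`.
If `f : Copy F H` then `K = f.toSubgraph` satisfies `F ≃g K.coe` (`Copy.isoToSubgraph`), copy counts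
and edge numbers are invariant under isomorphism, so `htilde K` gives
`H.copyCount F ≤ 2 * (⊤).copyCount F * p ^ U.card`; finally `2 * p ^ k ≤ (2 * p) ^ k` for `k ≥ 1`,
and for `U = ∅` the sum is `1`.
-/

open SimpleGraph Finset

namespace Vale.Agent.Lib.P064.PP

lemma mem_embSet {n : ℕ} {V : Type*} (H : SimpleGraph V) (σ : V ↪ Fin n) (x : EdgeT n) :
    x ∈ embSet H σ ↔ x.1 ∈ (H.map σ).edgeSet := by
  unfold embSet
  simp

open Classical in
/-- the number of embeddings extending a given embedding of a part -/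
lemma card_extend_le {n : ℕ} {V A : Type*} [Fintype V] [Fintype A] (f : A → V)
    (hf : Function.Injective f) (τ : A → Fin n) (hτ : Function.Injective τ) :
    ((Finset.univ : Finset (V ↪ Fin n)).filter (fun σ => ∀ a, σ (f a) = τ a)).card
      ≤ (n - Fintype.card A).descFactorial (Fintype.card V - Fintype.card A) := by
  have e1 : Fintype.card {v : V // ¬ v ∈ Set.range f} = Fintype.card V - Fintype.card A := by
    rw [Fintype.card_subtype_compl, ← Set.card_range_of_injective hf]
  have e2 : Fintype.card {i : Fin n // ¬ i ∈ Set.range τ} = n - Fintype.card A := by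
    rw [Fintype.card_subtype_compl, ← Set.card_range_of_injective hτ, Fintype.card_fin]
  rw [← e1, ← e2, ← Fintype.card_embedding_eq, ← Fintype.card_subtype]
  refine Fintype.card_le_of_injective
    (fun σ : {σ : V ↪ Fin n // ∀ a, σ (f a) = τ a} =>
      (⟨fun v => ⟨σ.1 v.1, by
          rintro ⟨a, ha⟩
          apply v.2
          exact ⟨a, σ.1.injective (by rw [σ.2 a, ha])⟩⟩,
        fun v w h => Subtype.ext (σ.1.injective (congrArg Subtype.val h))⟩ :
        {v : V // ¬ v ∈ Set.range f} ↪ {i : Fin n // ¬ i ∈ Set.range τ})) ?_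
  intro σ σ' h
  apply Subtype.ext
  ext v
  by_cases hv : v ∈ Set.range f
  · obtain ⟨a, rfl⟩ := hv
    rw [σ.2 a, σ'.2 a]
  · have h1 := congrArg (fun e : {v : V // ¬ v ∈ Set.range f} ↪ {i : Fin n // ¬ i ∈ Set.range τ} =>
      ((e ⟨v, hv⟩ : {i : Fin n // ¬ i ∈ Set.range τ}) : Fin n)) h
    exact congrArg Fin.val h1

open Classical in
theorem spread_of_tilde {n : ℕ} {V : Type*} [Fintype V] (H : SimpleGraph V)
    (hV : Fintype.card V ≤ n) (p : ℝ) (hp0 : 0 ≤ p)
    (htilde : ∀ K : H.Subgraph, (H.copyCount K.coe : ℝ) / 2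
      ≤ ((⊤ : SimpleGraph (Fin n)).copyCount K.coe : ℝ) * p ^ K.coe.edgeSet.ncard)
    (U : Finset (EdgeT n)) :
    ∑ σ ∈ (Finset.univ : Finset (V ↪ Fin n)).filter (fun σ => U ⊆ embSet H σ),
      (1 / (n.descFactorial (Fintype.card V) : ℝ)) ≤ (2 * p) ^ U.card := by
  rw [Finset.sum_const, nsmul_eq_mul]
  set 𝒮 : Finset (V ↪ Fin n) :=
    (Finset.univ : Finset (V ↪ Fin n)).filter (fun σ => U ⊆ embSet H σ) with h𝒮
  have hDpos : 0 < n.descFactorial (Fintype.card V) := Nat.descFactorial_pos.2 hV
  have hDpos' : (0 : ℝ) < (n.descFactorial (Fintype.card V) : ℝ) := by exact_mod_cast hDpos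
  rcases 𝒮.eq_empty_or_nonempty with hemp | ⟨σ₀, hσ₀⟩
  · rw [hemp]
    simp only [Finset.card_empty, Nat.cast_zero, zero_mul]
    positivity
  have hσ₀U : U ⊆ embSet H σ₀ := (Finset.mem_filter.1 hσ₀).2
  rcases U.eq_empty_or_nonempty with hU0 | hUne
  · -- the empty set of pairs
    rw [hU0, Finset.card_empty, pow_zero, mul_one_div, div_le_one hDpos']
    have : 𝒮.card ≤ Fintype.card (V ↪ Fin n) := Finset.card_le_univ _
    rw [Fintype.card_embedding_eq, Fintype.card_fin] at this
    exact_mod_cast this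
  -- the subgraph of `H` pulled back from `U`
  let K : H.Subgraph :=
    { verts := {x | ∃ y, H.Adj x y ∧ ∃ u ∈ U, u.1 = s(σ₀ x, σ₀ y)}
      Adj := fun x y => H.Adj x y ∧ ∃ u ∈ U, u.1 = s(σ₀ x, σ₀ y)
      adj_sub := fun h => h.1
      edge_vert := fun {x y} h => ⟨y, h⟩
      symm := ⟨fun x y h => ⟨h.1.symm, by
        obtain ⟨u, hu, e⟩ := h.2
        exact ⟨u, hu, by rw [e, Sym2.eq_swap]⟩⟩⟩ }
  have hKadj : ∀ x y, K.Adj x y ↔ (H.Adj x y ∧ ∃ u ∈ U, u.1 = s(σ₀ x, σ₀ y)) := fun x y => Iff.rfl
  -- number of edges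
  have hedges : K.coe.edgeSet.ncard = U.card := by
    have h1 : K.edgeSet.ncard = K.coe.edgeSet.ncard := by
      rw [← K.image_coe_edgeSet_coe]
      exact Set.ncard_image_of_injective _ (Sym2.map.injective Subtype.val_injective)
    have h2 : Sym2.map σ₀ '' K.edgeSet = Subtype.val '' (U : Set (EdgeT n)) := by
      ext e
      constructor
      · rintro ⟨e', he', rfl⟩
        induction e' with
        | _ x y =>
          rw [Subgraph.mem_edgeSet, hKadj] at he'
          obtain ⟨u, hu, e⟩ := he'.2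
          exact ⟨u, hu, by rw [e]; rfl⟩
      · rintro ⟨u, hu, rfl⟩
        have h3 : u.1 ∈ (H.map σ₀).edgeSet := (mem_embSet H σ₀ u).1 (hσ₀U hu)
        obtain ⟨e, he⟩ := u
        induction e with
        | _ i j =>
          rw [SimpleGraph.mem_edgeSet, SimpleGraph.map_adj] at h3
          obtain ⟨x, y, hxy, rfl, rfl⟩ := h3
          refine ⟨s(x, y), ?_, rfl⟩
          rw [Subgraph.mem_edgeSet, hKadj]
          exact ⟨hxy, ⟨_, hu, rfl⟩⟩
    rw [← h1, ← Set.ncard_image_of_injective _ (Sym2.map.injective σ₀.injective), h2,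
      Set.ncard_image_of_injective _ Subtype.val_injective, Set.ncard_coe_finset]
  -- every good embedding comes from a copy
  have hcopy : ∀ σ : V ↪ Fin n, U ⊆ embSet H σ →
      ∃ f : Copy K.coe H, ∀ x : K.verts, σ (f x) = σ₀ x := by
    intro σ hσ
    have hadj : ∀ x y : V, K.Adj x y → ∃ a b, H.Adj a b ∧ σ a = σ₀ x ∧ σ b = σ₀ y := by
      intro x y hxy
      obtain ⟨u, hu, e⟩ := hxy.2
      have h1 : u.1 ∈ (H.map σ).edgeSet := (mem_embSet H σ u).1 (hσ hu)
      rw [e, SimpleGraph.mem_edgeSet, SimpleGraph.map_adj] at h1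
      exact h1
    have hex : ∀ x : K.verts, ∃ a, σ a = σ₀ x := by
      rintro ⟨x, y, hxy⟩
      obtain ⟨a, b, _, ha, _⟩ := hadj x y hxy
      exact ⟨a, ha⟩
    choose g hg using hex
    refine ⟨⟨⟨g, ?_⟩, ?_⟩, hg⟩
    · intro x y hxy
      obtain ⟨a, b, hab, ha, hb⟩ := hadj x y hxy
      have e1 : a = g x := σ.injective (by rw [ha, hg])
      have e2 : b = g y := σ.injective (by rw [hb, hg])
      rw [← e1, ← e2]
      exact hab
    · intro x y h
      apply Subtype.ext
      apply σ₀.injective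
      have h' : g x = g y := h
      rw [← hg x, ← hg y, h']
  set b : ℕ := Fintype.card K.verts with hb
  set D : ℕ := (n - b).descFactorial (Fintype.card V - b) with hD
  have hbV : b ≤ Fintype.card V := Fintype.card_subtype_le _
  -- counting
  have hcount : 𝒮.card ≤ H.labelledCopyCount K.coe * D := by
    have hsub : 𝒮 ⊆ (Finset.univ : Finset (Copy K.coe H)).biUnion
        (fun f => (Finset.univ : Finset (V ↪ Fin n)).filter (fun σ => ∀ x : K.verts, σ (f x) = σ₀ x)) := by
      intro σ hσ
      obtain ⟨f, hf⟩ := hcopy σ (Finset.mem_filter.1 hσ).2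
      exact Finset.mem_biUnion.2 ⟨f, Finset.mem_univ _, Finset.mem_filter.2 ⟨Finset.mem_univ _, hf⟩⟩
    refine (Finset.card_le_card hsub).trans (Finset.card_biUnion_le.trans ?_)
    refine (Finset.sum_le_card_nsmul _ _ D ?_).trans ?_
    · intro f _
      exact card_extend_le (fun x : K.verts => f x) f.injective (fun x : K.verts => σ₀ x)
        (fun x y h => Subtype.ext (σ₀.injective h))
    · rw [smul_eq_mul, Finset.card_univ, Vale.Agent.Lib.P064.labelledCopyCount_eq_natCard,
        Nat.card_eq_fintype_card]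
  have hfac : D * n.descFactorial b = n.descFactorial (Fintype.card V) :=
    Nat.descFactorial_mul_descFactorial hbV
  have hDp : 0 < D := Nat.descFactorial_pos.2 (by omega)
  have hnb : 0 < n.descFactorial b := Nat.descFactorial_pos.2 (hbV.trans hV)
  -- the hypothesis for `K`
  set a : ℕ := Nat.card (K.coe ≃g K.coe) with ha
  have hL : H.labelledCopyCount K.coe = H.copyCount K.coe * a :=
    Vale.Agent.Lib.P064.labelledCopyCount_eq H K.coe
  have hT : n.descFactorial b = (⊤ : SimpleGraph (Fin n)).copyCount K.coe * a := by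
    rw [← Vale.Agent.Lib.P064.labelledCopyCount_eq, Vale.Agent.Lib.P064.labelledCopyCount_top]
  have hK := htilde K
  rw [hedges] at hK
  have hLle : (H.labelledCopyCount K.coe : ℝ) ≤ 2 * (n.descFactorial b : ℝ) * p ^ U.card := by
    rw [hL, hT]
    push_cast
    have ha0 : (0 : ℝ) ≤ a := Nat.cast_nonneg a
    nlinarith [mul_le_mul_of_nonneg_right hK ha0]
  have hpow : 2 * p ^ U.card ≤ (2 * p) ^ U.card := by
    rw [mul_pow]
    apply mul_le_mul_of_nonneg_right _ (pow_nonneg hp0 _)
    have : 1 ≤ U.card := Finset.card_pos.2 hUne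
    calc (2 : ℝ) = 2 ^ 1 := by norm_num
      _ ≤ 2 ^ U.card := pow_le_pow_right₀ (by norm_num) this
  rw [mul_one_div, div_le_iff₀ hDpos']
  have hDr : (0 : ℝ) < D := by exact_mod_cast hDp
  have hnbr : (0 : ℝ) < (n.descFactorial b : ℝ) := by exact_mod_cast hnb
  calc (𝒮.card : ℝ) ≤ (H.labelledCopyCount K.coe : ℝ) * D := by exact_mod_cast hcount
    _ ≤ (2 * (n.descFactorial b : ℝ) * p ^ U.card) * D := by gcongr
    _ = (2 * p ^ U.card) * ((D : ℝ) * (n.descFactorial b : ℝ)) := by ring
    _ = (2 * p ^ U.card) * (n.descFactorial (Fintype.card V) : ℝ) := by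
        rw [← hfac]; push_cast; ring
    _ ≤ (2 * p) ^ U.card * (n.descFactorial (Fintype.card V) : ℝ) := by gcongr

end Vale.Agent.Lib.P064.PP
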