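import Vale.Agent.Lib.P064.PP.Iterate
import Vale.Agent.Lib.P064.PP.Spread
import Vale.Agent.Lib.P064.General

/-!
P064, module PP6: `p_c(n,H) ≤ 140 log n * tilde p_E(n,H)` and its consequences.
-/

open SimpleGraph Finset

namespace Vale.Agent.Lib.P064.PP

open Vale.Agent.Lib.P064

lemma probContains_eq (n : ℕ) (p : ℝ) {V : Type*} (H : SimpleGraph V) :
    probContains n p H = ∑ W : Finset (EdgeT n), wt p W *
      (if 0 < (toG W).copyCount H then (1 : ℝ) else 0) := by
  classical
  unfold probContains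
  rw [← sum_graph_eq n p (fun G => if 0 < G.copyCount H then (1 : ℝ) else 0)]

lemma one_mem_pc_set (n : ℕ) {V : Type*} [Fintype V] (H : SimpleGraph V)
    (hV : Fintype.card V ≤ n) : 1 / 2 ≤ probContains n 1 H := by
  classical
  have hpos : 0 < (⊤ : SimpleGraph (Fin n)).copyCount H := by
    rw [copyCount_pos]
    refine isContained_top_iff.2 (Function.Embedding.nonempty_of_card_le ?_)
    rw [Fintype.card_fin]
    exact hV
  have hcard : (⊤ : SimpleGraph (Fin n)).edgeSet.ncard = n.choose 2 := by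
    rw [← coe_edgeFinset, Set.ncard_coe_finset, card_edgeFinset_top_eq_card_choose_two,
      Fintype.card_fin]
  unfold probContains
  have h := Finset.single_le_sum (s := (Finset.univ : Finset (SimpleGraph (Fin n))))
    (f := fun G : SimpleGraph (Fin n) =>
      (1 : ℝ) ^ G.edgeSet.ncard * (1 - 1) ^ (n.choose 2 - G.edgeSet.ncard) *
      (if 0 < G.copyCount H then 1 else 0)) (fun G _ => by
        simp only [sub_self]
        positivity) (Finset.mem_univ ⊤)
  simp only [hcard, Nat.sub_self, pow_zero, one_pow, one_mul, if_pos hpos] at h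
  simp only [one_pow, one_mul]
  refine le_trans (by norm_num) (h.trans (le_of_eq ?_))
  refine Finset.sum_congr rfl ?_
  intro G _
  congr 1

lemma pc_le_one (n : ℕ) {V : Type*} [Fintype V] (H : SimpleGraph V)
    (hV : Fintype.card V ≤ n) : pc n H ≤ 1 :=
  csInf_le ⟨0, fun _ hx => hx.1⟩ ⟨zero_le_one, le_rfl, one_mem_pc_set n H hV⟩

lemma pc_le_of_tilde (n : ℕ) {V : Type*} [Fintype V] (H : SimpleGraph V)
    (hV : Fintype.card V ≤ n) (p : ℝ) (hp0 : 0 < p) (hp : 32 * p ≤ 1)
    (htilde : ∀ K : H.Subgraph, (H.copyCount K.coe : ℝ) / 2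
      ≤ ((⊤ : SimpleGraph (Fin n)).copyCount K.coe : ℝ) * p ^ K.coe.edgeSet.ncard)
    (m : ℕ) (hm : H.edgeSet.ncard < 2 ^ m) :
    pc n H ≤ 32 * p * m := by
  classical
  have hdf : (0 : ℝ) < (n.descFactorial (Fintype.card V) : ℝ) := by
    exact_mod_cast Nat.descFactorial_pos.2 hV
  have hthr := spread_threshold (X := EdgeT n) (ι := V ↪ Fin n)
    (fun _ => 1 / (n.descFactorial (Fintype.card V) : ℝ)) (fun _ => by positivity)
    (by
      rw [Finset.sum_const, Finset.card_univ, Fintype.card_embedding_eq, Fintype.card_fin,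
        nsmul_eq_mul]
      field_simp)
    (embSet H) (2 * p) (by positivity)
    (fun U => by
      have := spread_of_tilde H hV p hp0.le htilde U
      convert this using 2)
    (32 * p) (by positivity) hp (by linarith) m
    (fun σ => by rw [embSet_card]; exact hm)
  set ρ : ℝ := 1 - (1 - 32 * p) ^ m with hρ
  have h1 : (0 : ℝ) ≤ 1 - 32 * p := by linarith
  have h2 : (1 - 32 * p) ^ m ≤ 1 := pow_le_one₀ h1 (by linarith)
  have hρ0 : 0 ≤ ρ := by rw [hρ]; linarith
  have hρ1 : ρ ≤ 1 := by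
    have : 0 ≤ (1 - 32 * p) ^ m := pow_nonneg h1 m
    rw [hρ]; linarith
  have hmem : 1 / 2 ≤ probContains n ρ H := by
    rw [probContains_eq]
    refine hthr.trans (Finset.sum_le_sum ?_)
    intro W _
    refine mul_le_mul_of_nonneg_left ?_ (wt_nonneg hρ0 hρ1 W)
    by_cases hex : ∃ σ : V ↪ Fin n, embSet H σ ⊆ W
    · obtain ⟨σ, hσ⟩ := hex
      rw [if_pos ⟨σ, hσ⟩, if_pos (copyCount_pos_of_embSet_subset H σ W hσ)]
    · rw [if_neg hex]
      split_ifs <;> norm_num
  have h3 : pc n H ≤ ρ := csInf_le ⟨0, fun _ hx => hx.1⟩ ⟨hρ0, hρ1, hmem⟩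
  have h4 : 1 + (m : ℝ) * (-(32 * p)) ≤ (1 + -(32 * p)) ^ m :=
    one_add_mul_le_pow (by linarith) m
  have h5 : ρ ≤ 32 * p * m := by
    rw [hρ]
    have : (1 + -(32 * p)) = 1 - 32 * p := by ring
    rw [this] at h4
    linarith
  exact h3.trans h5

lemma edge_ncard_le (n : ℕ) {V : Type*} [Fintype V] (H : SimpleGraph V)
    (hV : Fintype.card V ≤ n) : H.edgeSet.ncard ≤ n ^ 2 := by
  classical
  obtain ⟨σ⟩ : Nonempty (V ↪ Fin n) :=
    Function.Embedding.nonempty_of_card_le (by rw [Fintype.card_fin]; exact hV)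
  rw [← embSet_card H σ]
  refine (Finset.card_le_univ _).trans ?_
  have : Fintype.card (EdgeT n) = (Fintype.card (Fin n)).choose 2 := Sym2.card_subtype_not_diag
  rw [this, Fintype.card_fin]
  exact Nat.choose_le_pow n 2

lemma rounds_le (n e : ℕ) (hn : 2 ≤ n) (he : e ≤ n ^ 2) :
    32 * ((Nat.log 2 e + 1 : ℕ) : ℝ) ≤ 140 * Real.log n := by
  have hl2 : (0.6931471803 : ℝ) < Real.log 2 := Real.log_two_gt_d9
  have hnR : (2 : ℝ) ≤ n := by exact_mod_cast hn
  have hln : Real.log 2 ≤ Real.log n := Real.log_le_log (by norm_num) hnR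
  have h1 : (Nat.log 2 e : ℝ) * Real.log 2 ≤ 2 * Real.log n := by
    rcases Nat.eq_zero_or_pos e with h0 | hpos
    · rw [h0]
      simp only [Nat.log_zero_right, Nat.cast_zero, zero_mul]
      linarith
    have h2 : 2 ^ Nat.log 2 e ≤ n ^ 2 := (Nat.pow_log_le_self 2 hpos.ne').trans he
    have h3 : ((2 : ℝ) ^ Nat.log 2 e) ≤ (n : ℝ) ^ 2 := by exact_mod_cast h2
    have h4 := Real.log_le_log (by positivity) h3
    rw [Real.log_pow, Real.log_pow] at h4
    exact_mod_cast h4
  push_cast
  nlinarith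

theorem pc_le_tilde (n : ℕ) (hn : 2 ≤ n) {V : Type*} [Fintype V] (H : SimpleGraph V)
    (hV : Fintype.card V ≤ n) (hE : ∃ a b, H.Adj a b) :
    pc n H ≤ 140 * Real.log n * pEtilde n H := by
  classical
  have hl2 : (0.6931471803 : ℝ) < Real.log 2 := Real.log_two_gt_d9
  have hnR : (2 : ℝ) ≤ n := by exact_mod_cast hn
  have hln : Real.log 2 ≤ Real.log n := Real.log_le_log (by norm_num) hnR
  have hlpos : 0 < 140 * Real.log n := by linarith
  have hne : ({p : ℝ | 0 ≤ p ∧ p ≤ 1 ∧
      ∀ K : H.Subgraph, (H.copyCount K.coe : ℝ) / 2 ≤ expCopies n p K.coe}).Nonempty := by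
    refine ⟨1, zero_le_one, le_rfl, fun K => ?_⟩
    rw [expCopies_eq, one_pow, mul_one]
    have h1 : (H.copyCount K.coe : ℝ) ≤ ((⊤ : SimpleGraph (Fin n)).copyCount K.coe : ℝ) := by
      have := copyCount_le_of_labelled n H hV K.coe 1 (by
        rw [one_pow, mul_one]
        exact_mod_cast (labelledCopyCount_le_descFactorial H K.coe).trans
          (Nat.descFactorial_le _ hV))
      simpa using this
    have h2 : (0 : ℝ) ≤ (H.copyCount K.coe : ℝ) := Nat.cast_nonneg _
    linarith
  have key : ∀ p ∈ {p : ℝ | 0 ≤ p ∧ p ≤ 1 ∧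
      ∀ K : H.Subgraph, (H.copyCount K.coe : ℝ) / 2 ≤ expCopies n p K.coe},
      pc n H / (140 * Real.log n) ≤ p := by
    rintro p ⟨hp0, hp1, hp⟩
    rw [div_le_iff₀ hlpos]
    have htilde : ∀ K : H.Subgraph, (H.copyCount K.coe : ℝ) / 2
        ≤ ((⊤ : SimpleGraph (Fin n)).copyCount K.coe : ℝ) * p ^ K.coe.edgeSet.ncard := by
      intro K
      have := hp K
      rwa [expCopies_eq] at this
    -- p is positive since H has an edge
    have hppos : 0 < p := by
      rcases eq_or_lt_of_le hp0 with h0 | h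
      swap
      · exact h
      exfalso
      obtain ⟨a, b, hab⟩ := hE
      have h1 := htilde ⊤
      have hedge : (⊤ : H.Subgraph).coe.edgeSet.ncard ≠ 0 := by
        intro hz
        have hfin : ((⊤ : H.Subgraph).coe.edgeSet).Finite := Set.toFinite _
        rw [Set.ncard_eq_zero hfin] at hz
        have : s(⟨a, trivial⟩, ⟨b, trivial⟩) ∈ (⊤ : H.Subgraph).coe.edgeSet := by
          rw [mem_edgeSet]
          exact hab
        rw [hz] at this
        exact this
      rw [← h0, zero_pow hedge, mul_zero] at h1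
      have h2 : 0 < H.copyCount (⊤ : H.Subgraph).coe := by
        rw [copyCount_pos]
        exact ⟨(⊤ : H.Subgraph).coeCopy⟩
      have h3 : (0 : ℝ) < (H.copyCount (⊤ : H.Subgraph).coe : ℝ) := by exact_mod_cast h2
      linarith
    rcases le_total (32 * p) 1 with hsmall | hbig
    · have h1 := pc_le_of_tilde n H hV p hppos hsmall htilde (Nat.log 2 H.edgeSet.ncard + 1)
        (Nat.lt_pow_succ_log_self (by norm_num) _)
      have h2 := rounds_le n H.edgeSet.ncard hn (edge_ncard_le n H hV)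
      calc pc n H ≤ 32 * p * ((Nat.log 2 H.edgeSet.ncard + 1 : ℕ) : ℝ) := h1
        _ = p * (32 * ((Nat.log 2 H.edgeSet.ncard + 1 : ℕ) : ℝ)) := by ring
        _ ≤ p * (140 * Real.log n) := mul_le_mul_of_nonneg_left h2 hp0
    · have h1 := pc_le_one n H hV
      have h2 : (32 : ℝ) ≤ 140 * Real.log n := by linarith
      nlinarith
  have := le_csInf hne key
  unfold pEtilde
  rw [div_le_iff₀ hlpos] at this
  linarith

end Vale.Agent.Lib.P064.PP
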