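import Vale.Agent.Lib.P064.PP.Weights
import Vale.Agent.Lib.P064.PcDefs
import Vale.Agent.Lib.P064.Expectation
import Vale.Agent.Lib.P064.Counting

/-!
P064, module PP4 (`sum_graph_eq`, `embSet_card`, `copyCount_pos_of_embSet_subset`).
Graphs on `Fin n` as subsets of the set `EdgeT n` of non-diagonal unordered pairs, and the spread
of a uniformly random embedding of `H`.  Definitions and statements are frozen.

Route for `sum_graph_eq`: the map `W ↦ toG W` is a bijection `Finset (EdgeT n) → SimpleGraph (Fin n)`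
with `(toG W).edgeSet.ncard = W.card`, and `Fintype.card (EdgeT n) = n.choose 2`
(compare `sum_weights_ge` in `Expectation.lean`, `Sym2.card_subtype_not_diag`).

-/

open SimpleGraph Finset

namespace Vale.Agent.Lib.P064.PP

/-- the possible edges on the vertex set `Fin n` -/
abbrev EdgeT (n : ℕ) : Type := {e : Sym2 (Fin n) // ¬ e.IsDiag}

/-- the graph with edge set `W` -/
def toG {n : ℕ} (W : Finset (EdgeT n)) : SimpleGraph (Fin n) :=
  SimpleGraph.fromEdgeSet (Subtype.val '' (W : Set (EdgeT n)))

theorem edgeSet_toG {n : ℕ} (W : Finset (EdgeT n)) :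
    (toG W).edgeSet = Subtype.val '' (W : Set (EdgeT n)) := by
  unfold toG
  rw [SimpleGraph.edgeSet_fromEdgeSet]
  ext e
  constructor
  · intro h
    exact h.1
  · intro h
    refine ⟨h, ?_⟩
    obtain ⟨x, _, rfl⟩ := h
    exact x.2

theorem ncard_edgeSet_toG {n : ℕ} (W : Finset (EdgeT n)) : (toG W).edgeSet.ncard = W.card := by
  rw [edgeSet_toG, Set.ncard_image_of_injective _ Subtype.val_injective, Set.ncard_coe_finset]

theorem toG_bijective (n : ℕ) : Function.Bijective (toG (n := n)) := by
  classical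
  constructor
  · intro W W' h
    have h' : (toG W).edgeSet = (toG W').edgeSet := by rw [h]
    rw [edgeSet_toG, edgeSet_toG] at h'
    have := (Set.image_injective.2 Subtype.val_injective) h'
    exact_mod_cast this
  · intro G
    refine ⟨Finset.univ.filter (fun x : EdgeT n => x.1 ∈ G.edgeSet), ?_⟩
    apply SimpleGraph.edgeSet_injective
    rw [edgeSet_toG]
    ext e
    constructor
    · rintro ⟨x, hx, rfl⟩
      simpa using hx
    · intro he
      refine ⟨⟨e, G.not_isDiag_of_mem_edgeSet he⟩, ?_, rfl⟩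
      simpa using he

theorem sum_graph_eq (n : ℕ) (p : ℝ) (g : SimpleGraph (Fin n) → ℝ) :
    ∑ G : SimpleGraph (Fin n),
      p ^ G.edgeSet.ncard * (1 - p) ^ (n.choose 2 - G.edgeSet.ncard) * g G
      = ∑ W : Finset (EdgeT n), wt p W * g (toG W) := by
  symm
  refine Fintype.sum_bijective toG (toG_bijective n) _ _ fun W => ?_
  have hc : Fintype.card (EdgeT n) = n.choose 2 := by
    rw [Sym2.card_subtype_not_diag, Fintype.card_fin]
  rw [ncard_edgeSet_toG]
  unfold wt
  rw [hc]

open Classical in
/-- the edge set of the image of `H` under the embedding `σ` -/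
noncomputable def embSet {n : ℕ} {V : Type*} (H : SimpleGraph V) (σ : V ↪ Fin n) :
    Finset (EdgeT n) :=
  Finset.univ.filter (fun x => x.1 ∈ (H.map σ).edgeSet)

theorem embSet_card {n : ℕ} {V : Type*} [Fintype V] (H : SimpleGraph V) (σ : V ↪ Fin n) :
    (embSet H σ).card = H.edgeSet.ncard := by
  classical
  have h1 : Subtype.val '' ((embSet H σ : Finset (EdgeT n)) : Set (EdgeT n)) =
      (H.map σ).edgeSet := by
    ext e
    constructor
    · rintro ⟨x, hx, rfl⟩
      simpa [embSet] using hx
    · intro he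
      refine ⟨⟨e, (H.map σ).not_isDiag_of_mem_edgeSet he⟩, ?_, rfl⟩
      simpa [embSet] using he
  rw [← Set.ncard_coe_finset, ← Set.ncard_image_of_injective _ Subtype.val_injective, h1,
    SimpleGraph.edgeSet_map, Set.ncard_image_of_injective _ σ.sym2Map.injective]

theorem copyCount_pos_of_embSet_subset {n : ℕ} {V : Type*} [Fintype V] (H : SimpleGraph V)
    (σ : V ↪ Fin n) (W : Finset (EdgeT n)) (h : embSet H σ ⊆ W) : 0 < (toG W).copyCount H := by
  classical
  rw [copyCount_pos]
  refine ⟨⟨⟨σ, ?_⟩, σ.injective⟩⟩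
  intro a b hab
  have hadj : (H.map σ).Adj (σ a) (σ b) := (SimpleGraph.map_adj_apply).2 hab
  have hmem : s(σ a, σ b) ∈ (H.map σ).edgeSet := hadj
  have hx : (⟨s(σ a, σ b), (H.map σ).not_isDiag_of_mem_edgeSet hmem⟩ : EdgeT n) ∈ embSet H σ := by
    simp only [embSet, Finset.mem_filter, Finset.mem_univ, true_and]
    exact hmem
  have hW := h hx
  unfold toG
  rw [SimpleGraph.fromEdgeSet_adj]
  exact ⟨⟨_, hW, rfl⟩, hadj.ne⟩

end Vale.Agent.Lib.P064.PP
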