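import Vale.Agent.Lib.P064.PP.OneRound

/-!
P064, module PP3 (Iterate).  Iteration of `one_round` with halving of the fragment size.
The statements of `iterate` and `spread_threshold` are frozen.

Route for `iterate`: induction on `m`, for all `A`, `T`.
`m = 0`: every `T a`, `a ∈ A`, is empty; if `A` is nonempty the indicator vanishes, if `A = ∅` the
mass vanishes.
`m + 1`: `1 - (1 - p) ^ (m + 1) = 1 - (1 - p) * (1 - (1 - (1 - p) ^ m))`; rewrite the sum with
`sum_wt_union` (from right to left) as a double sum over `W₁` (density `p`) and `W₂`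
(density `1 - (1 - p) ^ m`).  Take `T'` from `one_round` with `ℓ = 2 ^ (m + 1) - 1`.
For fixed `W₁` let `A' = A.filter (fun a => (T' W₁ a).card < 2 ^ m)` and apply the induction
hypothesis to `(A', T' W₁)`.  If `T' W₁ a ⊆ W₂` for some `a ∈ A'` then `T b ⊆ W₁ ∪ W₂` for some
`b ∈ A`.  Hence
`μ(A) * P_{W₂}(fail for W₁ ∪ W₂) ≤ μ(A \ A') + μ(A') * P_{W₂}(fail for (A', T' W₁))`
(use `sum_wt`, `wt_nonneg`).  Average over `W₁`:
`∑ W₁, wt p W₁ * μ(A \ A'(W₁)) = ∑ t ∈ Ico (2^m) (2^(m+1)), ∑ W₁, wt p W₁ * μ{a ∈ A | card = t}`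
`≤ ∑ t ≥ 2^m, ℓ.choose t * (1/16)^t ≤ 2^ℓ * (1/16)^(2^m) ≤ (1/4)^(2^m) ≤ (1/4)^(m+1)`.
-/

open Finset

namespace Vale.Agent.Lib.P064.PP

variable {X : Type*} [Fintype X] [DecidableEq X] {ι : Type*} [Fintype ι] [DecidableEq ι]

open Classical in
/-- indicator of the failure event -/
noncomputable def fail (A : Finset ι) (T : ι → Finset X) (W : Finset X) : ℝ :=
  if ∃ a ∈ A, T a ⊆ W then (0 : ℝ) else 1

omit [Fintype X] [Fintype ι] [DecidableEq ι] in
lemma fail_nonneg (A : Finset ι) (T : ι → Finset X) (W : Finset X) : 0 ≤ fail A T W := by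
  unfold fail
  split_ifs <;> norm_num

omit [Fintype X] [Fintype ι] [DecidableEq ι] in
lemma fail_le_one (A : Finset ι) (T : ι → Finset X) (W : Finset X) : fail A T W ≤ 1 := by
  unfold fail
  split_ifs <;> norm_num

omit [Fintype X] [Fintype ι] [DecidableEq ι] in
lemma fail_mono {A A' : Finset ι} {T T' : ι → Finset X} {W W' : Finset X}
    (h : (∃ a ∈ A', T' a ⊆ W') → ∃ b ∈ A, T b ⊆ W) : fail A T W ≤ fail A' T' W' := by
  unfold fail
  by_cases h1 : ∃ a ∈ A', T' a ⊆ W'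
  · rw [if_pos h1, if_pos (h h1)]
  · rw [if_neg h1]
    split_ifs <;> norm_num

lemma tail_bound (m : ℕ) (x : ℝ) (hx0 : 0 ≤ x) (hx : x ≤ 1 / 16) :
    ∑ t ∈ Finset.Ico (2 ^ m) (2 ^ (m + 1)), ((2 ^ (m + 1) - 1 : ℕ).choose t : ℝ) * x ^ t
      ≤ (1 / 4 : ℝ) ^ (m + 1) := by
  set N : ℕ := 2 ^ m with hN
  set ℓ : ℕ := 2 ^ (m + 1) - 1 with hℓ
  have hpos : 0 < 2 ^ (m + 1) := by positivity
  have hℓ1 : ℓ + 1 = 2 ^ (m + 1) := by omega
  have h1 : ∀ t ∈ Finset.Ico N (2 ^ (m + 1)), (ℓ.choose t : ℝ) * x ^ t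
      ≤ (ℓ.choose t : ℝ) * (1 / 16 : ℝ) ^ N := by
    intro t ht
    have htN : N ≤ t := (Finset.mem_Ico.1 ht).1
    apply mul_le_mul_of_nonneg_left _ (Nat.cast_nonneg _)
    calc x ^ t ≤ (1 / 16 : ℝ) ^ t := pow_le_pow_left₀ hx0 hx t
      _ ≤ (1 / 16 : ℝ) ^ N := pow_le_pow_of_le_one (by norm_num) (by norm_num) htN
  refine (Finset.sum_le_sum h1).trans ?_
  rw [← Finset.sum_mul]
  have h2 : ∑ t ∈ Finset.Ico N (2 ^ (m + 1)), (ℓ.choose t : ℝ) ≤ (2 : ℝ) ^ ℓ := by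
    have h3 : ∑ t ∈ Finset.Ico N (2 ^ (m + 1)), (ℓ.choose t : ℝ)
        ≤ ∑ t ∈ Finset.range (ℓ + 1), (ℓ.choose t : ℝ) := by
      apply Finset.sum_le_sum_of_subset_of_nonneg
      · intro t ht
        rw [Finset.mem_range, hℓ1]
        exact (Finset.mem_Ico.1 ht).2
      · intro t _ _
        exact Nat.cast_nonneg _
    refine h3.trans (le_of_eq ?_)
    have := Nat.sum_range_choose ℓ
    exact_mod_cast this
  have h4 : (2 : ℝ) ^ ℓ ≤ (4 : ℝ) ^ N := by
    have : (4 : ℝ) ^ N = (2 : ℝ) ^ (2 * N) := by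
      rw [pow_mul]; norm_num
    rw [this]
    apply pow_le_pow_right₀ (by norm_num)
    have : 2 ^ (m + 1) = 2 * N := by rw [hN, pow_succ]; ring
    omega
  have h5 : (m + 1) ≤ N := Nat.lt_two_pow_self
  calc (∑ t ∈ Finset.Ico N (2 ^ (m + 1)), (ℓ.choose t : ℝ)) * (1 / 16 : ℝ) ^ N
      ≤ (4 : ℝ) ^ N * (1 / 16 : ℝ) ^ N := by
        apply mul_le_mul_of_nonneg_right (h2.trans h4) (by positivity)
    _ = (1 / 4 : ℝ) ^ N := by
        rw [← mul_pow]; norm_num
    _ ≤ (1 / 4 : ℝ) ^ (m + 1) := pow_le_pow_of_le_one (by norm_num) (by norm_num) h5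

theorem iterate_aux (μ : ι → ℝ) (hμ : ∀ a, 0 ≤ μ a) (S : ι → Finset X) (r : ℝ) (hr : 0 ≤ r)
    (hspread : ∀ U : Finset X, ∑ a ∈ Finset.univ.filter (fun a => U ⊆ S a), μ a ≤ r ^ U.card)
    (p : ℝ) (hp0 : 0 < p) (hp1 : p ≤ 1) (hrp : 16 * r ≤ p) (m : ℕ) :
    ∀ (A : Finset ι) (T : ι → Finset X), (∀ a ∈ A, T a ⊆ S a) → (∀ a ∈ A, (T a).card < 2 ^ m) →
      (∑ a ∈ A, μ a) * ∑ W : Finset X, wt (1 - (1 - p) ^ m) W * fail A T W
        ≤ ∑ i ∈ Finset.range m, (1 / 4 : ℝ) ^ (i + 1) := by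
  induction m with
  | zero =>
    intro A T _ hT
    simp only [Finset.range_zero, Finset.sum_empty]
    rcases A.eq_empty_or_nonempty with rfl | ⟨a, ha⟩
    · simp
    · have h0 : ∀ W, fail A T W = 0 := by
        intro W
        unfold fail
        rw [if_pos]
        refine ⟨a, ha, ?_⟩
        have := hT a ha
        have h1 : (T a).card = 0 := by simpa using this
        rw [Finset.card_eq_zero.1 h1]
        exact Finset.empty_subset _
      simp [h0]
  | succ m ih =>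
    intro A T hTS hT
    set q : ℝ := 1 - (1 - p) ^ m with hq
    have h1p0 : 0 ≤ 1 - p := by linarith
    have h1p1 : 1 - p ≤ 1 := by linarith
    have hq0 : 0 ≤ q := by
      have := pow_le_one₀ h1p0 h1p1 (n := m)
      rw [hq]; linarith
    have hq1 : q ≤ 1 := by
      have : 0 ≤ (1 - p) ^ m := pow_nonneg h1p0 m
      rw [hq]; linarith
    have hqq : 1 - (1 - p) ^ (m + 1) = 1 - (1 - p) * (1 - q) := by
      rw [hq, pow_succ]; ring
    rw [hqq, ← sum_wt_union p q (fail A T)]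
    set ℓ : ℕ := 2 ^ (m + 1) - 1 with hℓ
    have hpos : 0 < 2 ^ (m + 1) := by positivity
    obtain ⟨T', hT'1, hT'2, hT'3⟩ := one_round μ hμ S r hr hspread p hp0 hp1 ℓ A T hTS
      (fun a ha => by have := hT a ha; omega)
    set s : ℝ := ∑ i ∈ Finset.range m, (1 / 4 : ℝ) ^ (i + 1) with hs
    have hμA : ∀ B : Finset ι, 0 ≤ ∑ a ∈ B, μ a := fun B => Finset.sum_nonneg fun a _ => hμ a
    -- the estimate for fixed W₁
    have key1 : ∀ W₁ : Finset X, (∑ a ∈ A, μ a) * ∑ W₂ : Finset X, wt q W₂ * fail A T (W₁ ∪ W₂)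
        ≤ (∑ a ∈ A.filter (fun a => ¬ (T' W₁ a).card < 2 ^ m), μ a) + s := by
      intro W₁
      set A' : Finset ι := A.filter (fun a => (T' W₁ a).card < 2 ^ m) with hA'
      have hIH := ih A' (T' W₁)
        (fun a ha => (hT'1 W₁ a (Finset.mem_filter.1 ha).1).trans (hTS a (Finset.mem_filter.1 ha).1))
        (fun a ha => (Finset.mem_filter.1 ha).2)
      have hle : ∑ W₂ : Finset X, wt q W₂ * fail A T (W₁ ∪ W₂)
          ≤ ∑ W₂ : Finset X, wt q W₂ * fail A' (T' W₁) W₂ := by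
        apply Finset.sum_le_sum
        intro W₂ _
        apply mul_le_mul_of_nonneg_left _ (wt_nonneg hq0 hq1 W₂)
        apply fail_mono
        rintro ⟨a, ha, haW⟩
        obtain ⟨b, hb, hbW⟩ := hT'2 W₁ a (Finset.mem_filter.1 ha).1
        exact ⟨b, hb, hbW.trans (Finset.union_subset_union_right haW)⟩
      have hle1 : ∑ W₂ : Finset X, wt q W₂ * fail A T (W₁ ∪ W₂) ≤ 1 := by
        rw [← sum_wt (X := X) q]
        apply Finset.sum_le_sum
        intro W₂ _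
        have := mul_le_mul_of_nonneg_left (fail_le_one A T (W₁ ∪ W₂)) (wt_nonneg hq0 hq1 W₂)
        simpa using this
      have hge0 : 0 ≤ ∑ W₂ : Finset X, wt q W₂ * fail A T (W₁ ∪ W₂) :=
        Finset.sum_nonneg fun W₂ _ => mul_nonneg (wt_nonneg hq0 hq1 W₂) (fail_nonneg _ _ _)
      rw [← Finset.sum_filter_add_sum_filter_not A (fun a => (T' W₁ a).card < 2 ^ m) μ, add_mul]
      have e1 : (∑ a ∈ A', μ a) * ∑ W₂ : Finset X, wt q W₂ * fail A T (W₁ ∪ W₂) ≤ s :=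
        (mul_le_mul_of_nonneg_left hle (hμA A')).trans hIH
      have e2 : (∑ a ∈ A.filter (fun a => ¬ (T' W₁ a).card < 2 ^ m), μ a)
            * ∑ W₂ : Finset X, wt q W₂ * fail A T (W₁ ∪ W₂)
          ≤ ∑ a ∈ A.filter (fun a => ¬ (T' W₁ a).card < 2 ^ m), μ a := by
        have := mul_le_mul_of_nonneg_left hle1 (hμA (A.filter (fun a => ¬ (T' W₁ a).card < 2 ^ m)))
        simpa using this
      linarith
    -- the mass of the large fragments
    have key2 : ∑ W₁ : Finset X, wt p W₁ * ∑ a ∈ A.filter (fun a => ¬ (T' W₁ a).card < 2 ^ m), μ a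
        ≤ (1 / 4 : ℝ) ^ (m + 1) := by
      have hsplit : ∀ W₁ : Finset X, ∑ a ∈ A.filter (fun a => ¬ (T' W₁ a).card < 2 ^ m), μ a
          = ∑ t ∈ Finset.Ico (2 ^ m) (2 ^ (m + 1)),
              ∑ a ∈ A.filter (fun a => (T' W₁ a).card = t), μ a := by
        intro W₁
        rw [← Finset.sum_fiberwise_of_maps_to (s := A.filter (fun a => ¬ (T' W₁ a).card < 2 ^ m))
          (t := Finset.Ico (2 ^ m) (2 ^ (m + 1))) (g := fun a => (T' W₁ a).card)]
        · apply Finset.sum_congr rfl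
          intro t ht
          apply Finset.sum_congr _ fun _ _ => rfl
          ext a
          simp only [Finset.mem_filter]
          constructor
          · rintro ⟨⟨ha, _⟩, h2⟩
            exact ⟨ha, h2⟩
          · rintro ⟨ha, h2⟩
            refine ⟨⟨ha, ?_⟩, h2⟩
            rw [h2]
            exact not_lt.2 (Finset.mem_Ico.1 ht).1
        · intro a ha
          have ha' := Finset.mem_filter.1 ha
          rw [Finset.mem_Ico]
          refine ⟨not_lt.1 ha'.2, ?_⟩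
          exact lt_of_le_of_lt (Finset.card_le_card (hT'1 W₁ a ha'.1)) (hT a ha'.1)
      simp_rw [hsplit, Finset.mul_sum]
      rw [Finset.sum_comm]
      have hx0 : 0 ≤ r / p := div_nonneg hr hp0.le
      have hx : r / p ≤ 1 / 16 := by
        rw [div_le_iff₀ hp0]
        linarith
      refine le_trans (Finset.sum_le_sum fun t _ => ?_) (tail_bound m (r / p) hx0 hx)
      have := hT'3 t
      simp_rw [Finset.mul_sum] at this
      exact this
    calc (∑ a ∈ A, μ a) * ∑ W₁ : Finset X, ∑ W₂ : Finset X, wt p W₁ * wt q W₂ * fail A T (W₁ ∪ W₂)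
        = ∑ W₁ : Finset X, wt p W₁ *
            ((∑ a ∈ A, μ a) * ∑ W₂ : Finset X, wt q W₂ * fail A T (W₁ ∪ W₂)) := by
          rw [Finset.mul_sum]
          apply Finset.sum_congr rfl
          intro W₁ _
          rw [Finset.mul_sum, Finset.mul_sum, Finset.mul_sum]
          apply Finset.sum_congr rfl
          intro W₂ _
          ring
      _ ≤ ∑ W₁ : Finset X, wt p W₁ *
            ((∑ a ∈ A.filter (fun a => ¬ (T' W₁ a).card < 2 ^ m), μ a) + s) := by
          apply Finset.sum_le_sum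
          intro W₁ _
          exact mul_le_mul_of_nonneg_left (key1 W₁) (wt_nonneg hp0.le hp1 W₁)
      _ = (∑ W₁ : Finset X, wt p W₁ * ∑ a ∈ A.filter (fun a => ¬ (T' W₁ a).card < 2 ^ m), μ a)
            + s := by
          simp_rw [mul_add]
          rw [Finset.sum_add_distrib, ← Finset.sum_mul, sum_wt, one_mul]
      _ ≤ (1 / 4 : ℝ) ^ (m + 1) + s := by linarith
      _ = ∑ i ∈ Finset.range (m + 1), (1 / 4 : ℝ) ^ (i + 1) := by
          rw [Finset.sum_range_succ, hs]; ring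

open Classical in
theorem iterate (μ : ι → ℝ) (hμ : ∀ a, 0 ≤ μ a) (S : ι → Finset X) (r : ℝ) (hr : 0 ≤ r)
    (hspread : ∀ U : Finset X, ∑ a ∈ Finset.univ.filter (fun a => U ⊆ S a), μ a ≤ r ^ U.card)
    (p : ℝ) (hp0 : 0 < p) (hp1 : p ≤ 1) (hrp : 16 * r ≤ p) (m : ℕ) :
    ∀ (A : Finset ι) (T : ι → Finset X), (∀ a ∈ A, T a ⊆ S a) → (∀ a ∈ A, (T a).card < 2 ^ m) →
      (∑ a ∈ A, μ a) * ∑ W : Finset X, wt (1 - (1 - p) ^ m) W *
          (if ∃ a ∈ A, T a ⊆ W then (0 : ℝ) else 1)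
        ≤ ∑ i ∈ Finset.range m, (1 / 4 : ℝ) ^ (i + 1) :=
  iterate_aux μ hμ S r hr hspread p hp0 hp1 hrp m

lemma geom_quarter (m : ℕ) : ∑ i ∈ Finset.range m, (1 / 4 : ℝ) ^ (i + 1) = (1 - (1 / 4 : ℝ) ^ m) / 3 := by
  induction m with
  | zero => simp
  | succ m ih => rw [Finset.sum_range_succ, ih, pow_succ]; ring

open Classical in
/-- a spread probability weight on sets of size `< 2 ^ m`: at density `1 - (1 - p) ^ m`, `p ≥ 16 r`,
the random set contains one of the sets with probability at least `1 / 2`. -/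
theorem spread_threshold (μ : ι → ℝ) (hμ : ∀ a, 0 ≤ μ a) (hμ1 : ∑ a, μ a = 1)
    (S : ι → Finset X) (r : ℝ) (hr : 0 ≤ r)
    (hspread : ∀ U : Finset X, ∑ a ∈ Finset.univ.filter (fun a => U ⊆ S a), μ a ≤ r ^ U.card)
    (p : ℝ) (hp0 : 0 < p) (hp1 : p ≤ 1) (hrp : 16 * r ≤ p) (m : ℕ)
    (hS : ∀ a, (S a).card < 2 ^ m) :
    1 / 2 ≤ ∑ W : Finset X, wt (1 - (1 - p) ^ m) W * (if ∃ a, S a ⊆ W then (1 : ℝ) else 0) := by
  have h := iterate_aux μ hμ S r hr hspread p hp0 hp1 hrp m Finset.univ S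
    (fun a _ => Finset.Subset.refl _) (fun a _ => hS a)
  rw [hμ1, one_mul, geom_quarter] at h
  have hpt : ∀ W : Finset X, (if ∃ a, S a ⊆ W then (1 : ℝ) else 0) = 1 - fail Finset.univ S W := by
    intro W
    unfold fail
    by_cases hW : ∃ a, S a ⊆ W
    · have hW' : ∃ a ∈ Finset.univ, S a ⊆ W := by
        obtain ⟨a, ha⟩ := hW
        exact ⟨a, Finset.mem_univ a, ha⟩
      rw [if_pos hW, if_pos hW']; ring
    · have hW' : ¬ ∃ a ∈ Finset.univ, S a ⊆ W := by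
        rintro ⟨a, _, ha⟩
        exact hW ⟨a, ha⟩
      rw [if_neg hW, if_neg hW']; ring
  have hsum : ∑ W : Finset X, wt (1 - (1 - p) ^ m) W * (if ∃ a, S a ⊆ W then (1 : ℝ) else 0)
      = 1 - ∑ W : Finset X, wt (1 - (1 - p) ^ m) W * fail Finset.univ S W := by
    simp_rw [hpt, mul_sub, mul_one]
    rw [Finset.sum_sub_distrib, sum_wt]
  have hpow : 0 ≤ (1 / 4 : ℝ) ^ m := by positivity
  rw [hsum]
  linarith

end Vale.Agent.Lib.P064.PP
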