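import Vale.Agent.Lib.P064.PP.Weights

/-!
P064, module PP2 (OneRound).  One round of the Park-Pham / Frankston-Kahn-Narayanan-Park argument
with minimum fragments, for a spread weight `μ`.  The statement of `one_round` is frozen.

Route.  For `W` and `a ∈ A` let `b₀ ∈ A` minimise `(T b \ W).card` among the `b ∈ A` with
`T b ⊆ W ∪ T a` (`a` itself is a candidate; `Finset.exists_min_image`), and put
`T' W a = T b₀ \ W` (and anything, e.g. `∅`, for `a ∉ A`).  Then `T' W a ⊆ T a`, `T' W a` is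
disjoint from `W` and `T b₀ ⊆ W ∪ T' W a`.
For every `Z` containing some `T b`, `b ∈ A`, fix such a `b` and call `χ Z = T b`.
Claim: `T' W a ⊆ χ (W ∪ T' W a)`.  Indeed `χ Z = T b₁ ⊆ Z = W ∪ T' W a ⊆ W ∪ T a`, so `b₁` is a
candidate, hence `(T b₁ \ W).card ≥ (T' W a).card`, while `T b₁ \ W ⊆ Z \ W = T' W a`; so
`T b₁ \ W = T' W a`.
Counting: group the pairs `(W, a)` with `(T' W a).card = t` by `U = T' W a`.  For fixed `(W, U)`
the `μ`-mass of the `a` with `T' W a = U` is at most the mass of `{a | U ⊆ S a}`, which is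
`≤ r ^ t`.  The map `(W, U) ↦ (W ∪ U, U)` is injective on pairs with `Disjoint W U`, its image lies
in `{(Z, U) | U ⊆ χ Z, U.card = t}`, and `wt p W = wt p (Z \ U) ≤ wt p Z / p ^ t` by `wt_sdiff`.
Finally `∑ Z, wt p Z * #{U ⊆ χ Z, U.card = t} ≤ ℓ.choose t` by `sum_wt`, `Finset.card_powersetCard`
and `Nat.choose_le_choose`.
-/

open Finset

namespace Vale.Agent.Lib.P064.PP

variable {X : Type*} [Fintype X] [DecidableEq X] {ι : Type*} [Fintype ι] [DecidableEq ι]

/-- the counting core: a family `𝒰 W` of `t`-sets disjoint from `W`, each contained in the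
chosen small set `χ (W ∪ U)`, has small expected size. -/
theorem count_core (p : ℝ) (hp0 : 0 < p) (hp1 : p ≤ 1) (ℓ t : ℕ)
    (χ : Finset X → Finset X) (hχc : ∀ Z, (χ Z).card ≤ ℓ) (hχs : ∀ Z, χ Z ⊆ Z)
    (𝒰 : Finset X → Finset (Finset X))
    (h𝒰 : ∀ W, ∀ U ∈ 𝒰 W, U.card = t ∧ Disjoint W U ∧ U ⊆ χ (W ∪ U)) :
    ∑ W : Finset X, wt p W * ((𝒰 W).card : ℝ) ≤ (ℓ.choose t : ℝ) / p ^ t := by
  have hpt : 0 < p ^ t := pow_pos hp0 t
  have hwt : ∀ W : Finset X, 0 ≤ wt p W := fun W => wt_nonneg hp0.le hp1 W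
  -- rewrite as a sum over pairs
  have e1 : ∑ W : Finset X, wt p W * ((𝒰 W).card : ℝ) =
      ∑ x ∈ (Finset.univ : Finset (Finset X)).sigma 𝒰, wt p x.1 := by
    rw [Finset.sum_sigma]
    refine Finset.sum_congr rfl fun W _ => ?_
    simp only [Finset.sum_const, nsmul_eq_mul]
    rw [mul_comm]
  set Q : Finset (Σ _ : Finset X, Finset X) :=
    (Finset.univ : Finset (Finset X)).sigma (fun Z => powersetCard t (χ Z)) with hQ
  set e : (Σ _ : Finset X, Finset X) → (Σ _ : Finset X, Finset X) :=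
    fun x => ⟨x.1 ∪ x.2, x.2⟩ with he
  have hinj : Set.InjOn e ((Finset.univ : Finset (Finset X)).sigma 𝒰 : Set _) := by
    rintro ⟨W, U⟩ hx ⟨W', U'⟩ hx' hxx
    simp only [Finset.coe_sigma, Set.mem_sigma_iff, Finset.mem_coe, Finset.mem_univ,
      true_and] at hx hx'
    simp only [he, Sigma.mk.injEq, heq_eq_eq] at hxx
    obtain ⟨h1, h2⟩ := hxx
    subst h2
    have d1 := (h𝒰 W U hx).2.1
    have d2 := (h𝒰 W' U hx').2.1
    have : W = W' := by
      have a1 : (W ∪ U) \ U = W := Finset.union_sdiff_cancel_right d1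
      have a2 : (W' ∪ U) \ U = W' := Finset.union_sdiff_cancel_right d2
      rw [← a1, ← a2, h1]
    subst this
    rfl
  have e2 : ∑ x ∈ (Finset.univ : Finset (Finset X)).sigma 𝒰, wt p x.1 =
      ∑ y ∈ ((Finset.univ : Finset (Finset X)).sigma 𝒰).image e, wt p (y.1 \ y.2) := by
    rw [Finset.sum_image hinj]
    refine Finset.sum_congr rfl fun x hx => ?_
    obtain ⟨W, U⟩ := x
    simp only [Finset.mem_sigma, Finset.mem_univ, true_and] at hx
    simp only [he]
    rw [Finset.union_sdiff_cancel_right (h𝒰 W U hx).2.1]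
  have hsub : ((Finset.univ : Finset (Finset X)).sigma 𝒰).image e ⊆ Q := by
    intro y hy
    rw [Finset.mem_image] at hy
    obtain ⟨⟨W, U⟩, hx, rfl⟩ := hy
    simp only [Finset.mem_sigma, Finset.mem_univ, true_and] at hx
    simp only [hQ, he, Finset.mem_sigma, Finset.mem_univ, true_and, Finset.mem_powersetCard]
    exact ⟨(h𝒰 W U hx).2.2, (h𝒰 W U hx).1⟩
  have e3 : ∑ y ∈ ((Finset.univ : Finset (Finset X)).sigma 𝒰).image e, wt p (y.1 \ y.2) ≤
      ∑ y ∈ Q, wt p (y.1 \ y.2) :=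
    Finset.sum_le_sum_of_subset_of_nonneg hsub fun y _ _ => hwt _
  have e4 : ∑ y ∈ Q, wt p (y.1 \ y.2) ≤ ∑ y ∈ Q, wt p y.1 / p ^ t := by
    refine Finset.sum_le_sum fun y hy => ?_
    obtain ⟨Z, U⟩ := y
    simp only [hQ, Finset.mem_sigma, Finset.mem_univ, true_and, Finset.mem_powersetCard] at hy
    have h := wt_sdiff p U Z (hy.1.trans (hχs Z))
    rw [hy.2] at h
    rw [le_div_iff₀ hpt, h]
    have h1 : (1 - p) ^ t ≤ 1 := pow_le_one₀ (by linarith) (by linarith)
    calc wt p Z * (1 - p) ^ t ≤ wt p Z * 1 := by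
          exact mul_le_mul_of_nonneg_left h1 (hwt Z)
      _ = wt p Z := mul_one _
  have e5 : ∑ y ∈ Q, wt p y.1 / p ^ t ≤ (ℓ.choose t : ℝ) / p ^ t := by
    rw [hQ, Finset.sum_sigma]
    have : ∀ Z : Finset X, ∑ _U ∈ powersetCard t (χ Z), wt p Z / p ^ t ≤
        wt p Z * ((ℓ.choose t : ℝ) / p ^ t) := by
      intro Z
      rw [Finset.sum_const, Finset.card_powersetCard, nsmul_eq_mul]
      have hc : (((χ Z).card.choose t : ℕ) : ℝ) ≤ (ℓ.choose t : ℝ) := by
        exact_mod_cast Nat.choose_le_choose t (hχc Z)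
      calc (((χ Z).card.choose t : ℕ) : ℝ) * (wt p Z / p ^ t)
          ≤ (ℓ.choose t : ℝ) * (wt p Z / p ^ t) :=
            mul_le_mul_of_nonneg_right hc (div_nonneg (hwt Z) hpt.le)
        _ = wt p Z * ((ℓ.choose t : ℝ) / p ^ t) := by ring
    calc ∑ Z : Finset X, ∑ _U ∈ powersetCard t (χ Z), wt p Z / p ^ t
        ≤ ∑ Z : Finset X, wt p Z * ((ℓ.choose t : ℝ) / p ^ t) :=
          Finset.sum_le_sum fun Z _ => this Z
      _ = (ℓ.choose t : ℝ) / p ^ t := by
          rw [← Finset.sum_mul, sum_wt, one_mul]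
  rw [e1, e2]
  exact e3.trans (e4.trans e5)

theorem one_round (μ : ι → ℝ) (hμ : ∀ a, 0 ≤ μ a) (S : ι → Finset X) (r : ℝ) (hr : 0 ≤ r)
    (hspread : ∀ U : Finset X, ∑ a ∈ Finset.univ.filter (fun a => U ⊆ S a), μ a ≤ r ^ U.card)
    (p : ℝ) (hp0 : 0 < p) (hp1 : p ≤ 1) (ℓ : ℕ)
    (A : Finset ι) (T : ι → Finset X) (hTS : ∀ a ∈ A, T a ⊆ S a) (hT : ∀ a ∈ A, (T a).card ≤ ℓ) :
    ∃ T' : Finset X → ι → Finset X,
      (∀ W, ∀ a ∈ A, T' W a ⊆ T a) ∧
      (∀ W, ∀ a ∈ A, ∃ b ∈ A, T b ⊆ W ∪ T' W a) ∧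
      (∀ t : ℕ, ∑ W : Finset X, wt p W * ∑ a ∈ A.filter (fun a => (T' W a).card = t), μ a
        ≤ (ℓ.choose t : ℝ) * (r / p) ^ t) := by
  classical
  -- the minimising index
  have hβ : ∀ (W : Finset X) (a : ι), ∃ b : ι, a ∈ A →
      (b ∈ A ∧ T b ⊆ W ∪ T a ∧ ∀ c ∈ A, T c ⊆ W ∪ T a → (T b \ W).card ≤ (T c \ W).card) := by
    intro W a
    by_cases ha : a ∈ A
    · have hne : (A.filter (fun b => T b ⊆ W ∪ T a)).Nonempty :=
        ⟨a, Finset.mem_filter.2 ⟨ha, Finset.subset_union_right⟩⟩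
      obtain ⟨b, hb, hmin⟩ := Finset.exists_min_image _ (fun b => (T b \ W).card) hne
      rw [Finset.mem_filter] at hb
      exact ⟨b, fun _ => ⟨hb.1, hb.2, fun c hc hcs => hmin c (Finset.mem_filter.2 ⟨hc, hcs⟩)⟩⟩
    · exact ⟨a, fun h => absurd h ha⟩
  choose β hβ using hβ
  -- the chosen small set inside Z
  have hχ : ∀ Z : Finset X, ∃ c : Finset X, c.card ≤ ℓ ∧ c ⊆ Z ∧
      ((∃ b ∈ A, T b ⊆ Z) → ∃ b ∈ A, c = T b) := by
    intro Z
    by_cases h : ∃ b ∈ A, T b ⊆ Z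
    · obtain ⟨b, hb, hbZ⟩ := h
      exact ⟨T b, hT b hb, hbZ, fun _ => ⟨b, hb, rfl⟩⟩
    · exact ⟨∅, by simp, Finset.empty_subset _, fun h' => absurd h' h⟩
  choose χ hχc hχs hχ using hχ
  refine ⟨fun W a => T (β W a) \ W, ?_, ?_, ?_⟩
  · intro W a ha x hx
    rw [Finset.mem_sdiff] at hx
    have := (hβ W a ha).2.1 hx.1
    rw [Finset.mem_union] at this
    exact this.resolve_left hx.2
  · intro W a ha
    refine ⟨β W a, (hβ W a ha).1, ?_⟩
    intro x hx
    by_cases hxW : x ∈ W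
    · exact Finset.mem_union_left _ hxW
    · exact Finset.mem_union_right _ (Finset.mem_sdiff.2 ⟨hx, hxW⟩)
  · intro t
    have hwt : ∀ W : Finset X, 0 ≤ wt p W := fun W => wt_nonneg hp0.le hp1 W
    set 𝒰 : Finset X → Finset (Finset X) := fun W =>
      (A.filter (fun a => (T (β W a) \ W).card = t)).image (fun a => T (β W a) \ W) with h𝒰def
    have h𝒰 : ∀ W, ∀ U ∈ 𝒰 W, U.card = t ∧ Disjoint W U ∧ U ⊆ χ (W ∪ U) := by
      intro W U hU
      simp only [h𝒰def, Finset.mem_image, Finset.mem_filter] at hU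
      obtain ⟨a, ⟨ha, hcard⟩, rfl⟩ := hU
      refine ⟨hcard, Finset.disjoint_sdiff, ?_⟩
      have hsubZ : T (β W a) ⊆ W ∪ T (β W a) \ W := by
        intro x hx
        by_cases hxW : x ∈ W
        · exact Finset.mem_union_left _ hxW
        · exact Finset.mem_union_right _ (Finset.mem_sdiff.2 ⟨hx, hxW⟩)
      obtain ⟨b₁, hb₁, hb₁eq⟩ := hχ (W ∪ T (β W a) \ W) ⟨β W a, (hβ W a ha).1, hsubZ⟩
      have hb₁Z : T b₁ ⊆ W ∪ T (β W a) \ W := hb₁eq ▸ hχs _
      have hb₁a : T b₁ ⊆ W ∪ T a := by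
        intro x hx
        have := hb₁Z hx
        rw [Finset.mem_union] at this
        rcases this with h | h
        · exact Finset.mem_union_left _ h
        · exact (hβ W a ha).2.1 (Finset.mem_sdiff.1 h).1
      have hmin := (hβ W a ha).2.2 b₁ hb₁ hb₁a
      have hsub : T b₁ \ W ⊆ T (β W a) \ W := by
        intro x hx
        rw [Finset.mem_sdiff] at hx
        have := hb₁Z hx.1
        rw [Finset.mem_union] at this
        exact this.resolve_left hx.2
      have heq : T b₁ \ W = T (β W a) \ W := Finset.eq_of_subset_of_card_le hsub hmin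
      rw [hb₁eq, ← heq]
      exact Finset.sdiff_subset
    have hstep : ∀ W : Finset X,
        ∑ a ∈ A.filter (fun a => (T (β W a) \ W).card = t), μ a ≤ ((𝒰 W).card : ℝ) * r ^ t := by
      intro W
      have hmaps : ∀ a ∈ A.filter (fun a => (T (β W a) \ W).card = t),
          (fun a => T (β W a) \ W) a ∈ 𝒰 W := fun a ha => Finset.mem_image_of_mem _ ha
      rw [← Finset.sum_fiberwise_of_maps_to hmaps]
      calc ∑ U ∈ 𝒰 W, ∑ a ∈ (A.filter (fun a => (T (β W a) \ W).card = t)).filter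
              (fun a => T (β W a) \ W = U), μ a
          ≤ ∑ _U ∈ 𝒰 W, r ^ t := by
            refine Finset.sum_le_sum fun U hU => ?_
            have hc : U.card = t := (h𝒰 W U hU).1
            rw [← hc]
            refine le_trans ?_ (hspread U)
            refine Finset.sum_le_sum_of_subset_of_nonneg ?_ fun a _ _ => hμ a
            intro a ha
            simp only [Finset.mem_filter, Finset.mem_univ, true_and] at ha ⊢
            obtain ⟨⟨haA, _⟩, rfl⟩ := ha
            intro x hx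
            rw [Finset.mem_sdiff] at hx
            have := (hβ W a haA).2.1 hx.1
            rw [Finset.mem_union] at this
            exact hTS a haA (this.resolve_left hx.2)
        _ = ((𝒰 W).card : ℝ) * r ^ t := by rw [Finset.sum_const, nsmul_eq_mul]
    have hcore := count_core p hp0 hp1 ℓ t χ hχc hχs 𝒰 h𝒰
    have hrt : 0 ≤ r ^ t := pow_nonneg hr t
    calc ∑ W : Finset X, wt p W * ∑ a ∈ A.filter (fun a => (T (β W a) \ W).card = t), μ a
        ≤ ∑ W : Finset X, wt p W * (((𝒰 W).card : ℝ) * r ^ t) :=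
          Finset.sum_le_sum fun W _ => mul_le_mul_of_nonneg_left (hstep W) (hwt W)
      _ = (∑ W : Finset X, wt p W * ((𝒰 W).card : ℝ)) * r ^ t := by
          rw [Finset.sum_mul]
          refine Finset.sum_congr rfl fun W _ => ?_
          ring
      _ ≤ ((ℓ.choose t : ℝ) / p ^ t) * r ^ t := mul_le_mul_of_nonneg_right hcore hrt
      _ = (ℓ.choose t : ℝ) * (r / p) ^ t := by
          rw [div_pow]
          ring

end Vale.Agent.Lib.P064.PP
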