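import Mathlib

/-!
P064, module PP1 (Weights).  Product measure of density `p` on the subsets of a finite type,
written as an explicit weight.  All statements are frozen.

Routes.
* `sum_wt`: `Finset.sum_pow_mul_eq_add_pow` (sum over `powerset univ`), `Finset.powerset_univ`.
* `wt_sdiff`: cardinalities, `pow_add`.
* `sum_wt_union`: induction on the ground set (`Finset.sum_powerset_insert`) for the relative
  weight `wtOn p s W = p ^ #W * (1 - p) ^ (#s - #W)`.
-/

open Finset

namespace Vale.Agent.Lib.P064.PP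

variable {X : Type*} [Fintype X] [DecidableEq X]

/-- the probability of the set `W` under the product measure of density `p` -/
noncomputable def wt (p : ℝ) (W : Finset X) : ℝ :=
  p ^ W.card * (1 - p) ^ (Fintype.card X - W.card)

lemma wt_nonneg {p : ℝ} (hp0 : 0 ≤ p) (hp1 : p ≤ 1) (W : Finset X) : 0 ≤ wt p W := by
  unfold wt
  exact mul_nonneg (pow_nonneg hp0 _) (pow_nonneg (by linarith) _)

lemma wt_eq_prod (p : ℝ) (W : Finset X) : wt p W = ∏ x : X, if x ∈ W then p else 1 - p := by
  rw [Finset.prod_ite, Finset.prod_const, Finset.prod_const]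
  have h1 : (Finset.univ.filter (fun x => x ∈ W)) = W := by
    ext x
    simp
  have h2 : (Finset.univ.filter (fun x => x ∉ W)) = Wᶜ := by
    ext x
    simp
  rw [h1, h2, Finset.card_compl]
  rfl

lemma sum_wt (p : ℝ) : ∑ W : Finset X, wt p W = 1 := by
  have h := Finset.sum_pow_mul_eq_add_pow p (1 - p) (Finset.univ : Finset X)
  rw [Finset.powerset_univ] at h
  have h2 : p + (1 - p) = 1 := by ring
  rw [h2, one_pow] at h
  rw [← h]
  rfl

lemma wt_sdiff (p : ℝ) (T Z : Finset X) (hTZ : T ⊆ Z) :
    wt p (Z \ T) * p ^ T.card = wt p Z * (1 - p) ^ T.card := by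
  unfold wt
  have h1 : (Z \ T).card + T.card = Z.card := Finset.card_sdiff_add_card_eq_card hTZ
  have h2 : Z.card ≤ Fintype.card X := Finset.card_le_univ Z
  have h3 : Fintype.card X - (Z \ T).card = (Fintype.card X - Z.card) + T.card := by omega
  rw [h3, ← h1, pow_add, pow_add]
  ring

/-- the weight relative to a ground set `s` -/
noncomputable def wtOn (p : ℝ) (s W : Finset X) : ℝ :=
  p ^ W.card * (1 - p) ^ (s.card - W.card)

omit [Fintype X] in
lemma wtOn_insert_of_subset (p : ℝ) {a : X} {s W : Finset X} (ha : a ∉ s) (hW : W ⊆ s) :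
    wtOn p (insert a s) W = (1 - p) * wtOn p s W := by
  unfold wtOn
  have h1 : W.card ≤ s.card := Finset.card_le_card hW
  have h2 : (insert a s).card - W.card = (s.card - W.card) + 1 := by
    rw [Finset.card_insert_of_notMem ha]
    omega
  rw [h2, pow_succ]
  ring

omit [Fintype X] in
lemma wtOn_insert_insert (p : ℝ) {a : X} {s W : Finset X} (ha : a ∉ s) (hW : W ⊆ s) :
    wtOn p (insert a s) (insert a W) = p * wtOn p s W := by
  unfold wtOn
  have haW : a ∉ W := fun h => ha (hW h)
  have h2 : (insert a s).card - (insert a W).card = s.card - W.card := by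
    rw [Finset.card_insert_of_notMem ha, Finset.card_insert_of_notMem haW]
    omega
  rw [h2, Finset.card_insert_of_notMem haW, pow_succ]
  ring

omit [Fintype X] in
lemma sum_wtOn_union (p₁ p₂ : ℝ) (s : Finset X) : ∀ g : Finset X → ℝ,
    ∑ W₁ ∈ s.powerset, ∑ W₂ ∈ s.powerset, wtOn p₁ s W₁ * wtOn p₂ s W₂ * g (W₁ ∪ W₂)
      = ∑ W ∈ s.powerset, wtOn (1 - (1 - p₁) * (1 - p₂)) s W * g W := by
  induction s using Finset.induction_on with
  | empty =>
    intro g
    simp [wtOn]
  | insert a s ha ih =>
    intro g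
    have ih1 := ih g
    have ih2 := ih (fun W => g (insert a W))
    simp only [Finset.sum_powerset_insert ha]
    -- right side
    have hR : ∑ W ∈ s.powerset, wtOn (1 - (1 - p₁) * (1 - p₂)) (insert a s) W * g W +
        ∑ W ∈ s.powerset, wtOn (1 - (1 - p₁) * (1 - p₂)) (insert a s) (insert a W) *
          g (insert a W) =
        ((1 - p₁) * (1 - p₂)) * ∑ W ∈ s.powerset, wtOn (1 - (1 - p₁) * (1 - p₂)) s W * g W +
        (1 - (1 - p₁) * (1 - p₂)) *
          ∑ W ∈ s.powerset, wtOn (1 - (1 - p₁) * (1 - p₂)) s W * g (insert a W) := by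
      rw [Finset.mul_sum, Finset.mul_sum]
      congr 1
      · refine Finset.sum_congr rfl fun W hW => ?_
        rw [wtOn_insert_of_subset _ ha (Finset.mem_powerset.1 hW)]
        ring
      · refine Finset.sum_congr rfl fun W hW => ?_
        rw [wtOn_insert_insert _ ha (Finset.mem_powerset.1 hW)]
        ring
    rw [hR, ← ih1, ← ih2]
    simp only [Finset.mul_sum, ← Finset.sum_add_distrib]
    refine Finset.sum_congr rfl fun W₁ hW₁ => ?_
    refine Finset.sum_congr rfl fun W₂ hW₂ => ?_
    rw [wtOn_insert_of_subset _ ha (Finset.mem_powerset.1 hW₁),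
      wtOn_insert_of_subset _ ha (Finset.mem_powerset.1 hW₂),
      wtOn_insert_insert _ ha (Finset.mem_powerset.1 hW₁),
      wtOn_insert_insert _ ha (Finset.mem_powerset.1 hW₂)]
    have u1 : W₁ ∪ insert a W₂ = insert a (W₁ ∪ W₂) := Finset.union_insert _ _ _
    have u2 : insert a W₁ ∪ W₂ = insert a (W₁ ∪ W₂) := Finset.insert_union _ _ _
    have u3 : insert a W₁ ∪ insert a W₂ = insert a (W₁ ∪ W₂) := by
      rw [Finset.insert_union, Finset.union_insert, Finset.insert_idem]
    rw [u1, u2, u3]
    ring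

/-- the union of two independent random sets is a random set -/
lemma sum_wt_union (p₁ p₂ : ℝ) (g : Finset X → ℝ) :
    ∑ W₁ : Finset X, ∑ W₂ : Finset X, wt p₁ W₁ * wt p₂ W₂ * g (W₁ ∪ W₂)
      = ∑ W : Finset X, wt (1 - (1 - p₁) * (1 - p₂)) W * g W := by
  have h := sum_wtOn_union p₁ p₂ (Finset.univ : Finset X) g
  rw [Finset.powerset_univ] at h
  exact h

end Vale.Agent.Lib.P064.PP
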